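import Vale.Agent.Lib.P068.Sum

open Set Matroid

namespace Vale.Agent.Results.P068.TwoNearlyUniform

open Vale.Agent.Lib.P068

/-- Arbitrary `M` against a direct sum of two nearly uniform matroids, the finite defect theorem,
and the three basic sources of nearly uniform matroids. -/
theorem result {α : Type*} :
    (∀ (M N : Matroid α), M.E = N.E → ∀ J : Set α, M.Indep J → N.Indep J →
      ((M ／ J).RankFinite ∨ (N ／ J).RankFinite) → SatisfiesIntersection M N) ∧
    (∀ (M N₁ N₂ : Matroid α) (h : Disjoint N₁.E N₂.E), M.E = N₁.E ∪ N₂.E →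
      NearlyUniform N₁ → NearlyUniform N₂ → SatisfiesIntersection M (N₁.disjointSum N₂ h)) ∧
    (∀ N : Matroid α, (∀ X ⊆ N.E, N.Indep X ∨ N.Spanning X) → NearlyUniform N) ∧
    (∀ N : Matroid α, N.RankFinite → NearlyUniform N) ∧
    (∀ N : Matroid α, N✶.RankFinite → NearlyUniform N) := by
  refine ⟨?_, ?_, ?_, ?_, ?_⟩
  · intro M N hE J hM hN h
    rcases h with h | h
    · exact sat_of_rankFinite M N hE hM hN h
    · exact sat_of_rankFinite' hE hM hN h
  · intro M N₁ N₂ h hE h₁ h₂
    exact sat_disjointSum h hE h₁ h₂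
  · intro N hN X hX
    refine ⟨∅, finite_empty, empty_subset _, ?_⟩
    rw [sdiff_empty, union_empty]
    exact hN X hX
  · intro N hN X hX
    obtain ⟨B, hB⟩ := N.exists_isBase
    refine ⟨B, hB.finite, hB.subset_ground, Or.inr ?_⟩
    exact hB.spanning.superset subset_union_right (union_subset hX hB.subset_ground)
  · intro N hN X hX
    obtain ⟨D, hD⟩ := N✶.exists_isBase
    have hDE : D ⊆ N.E := hD.subset_ground
    refine ⟨D, hD.finite, hDE, Or.inl ?_⟩
    have hB : N.IsBase (N.E \ D) := by
      have := hD.compl_isBase_of_dual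
      simpa using this
    exact hB.indep.subset (sdiff_subset_sdiff_left hX)

end Vale.Agent.Results.P068.TwoNearlyUniform
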