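import Vale.Agent.Results.P068.FiniteNearlyUniform
import Vale.Agent.Results.P068.TwoNearlyUniform

open Set Matroid

open Vale.Agent.Lib.P068

/-- The finite defect theorem, and an arbitrary matroid against a direct sum of finitely many nearly
uniform matroids, with the three basic sources of nearly uniform matroids. -/
theorem Vale.Agent.Results.P068.A0Conj.result.{u, v} {α : Type u} :
    (∀ (M N : Matroid α), M.E = N.E → ∀ J : Set α, M.Indep J → N.Indep J →
      ((M ／ J).RankFinite ∨ (N ／ J).RankFinite) → SatisfiesIntersection M N) ∧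
    (∀ {ι : Type v} [Finite ι] (M : Matroid α) (N : ι → Matroid α)
      (h : Pairwise (Function.onFun Disjoint fun i => (N i).E)), M.E = ⋃ i, (N i).E →
      (∀ i, NearlyUniform (N i)) → SatisfiesIntersection M (Matroid.disjointSigma N h)) ∧
    (∀ N : Matroid α, (∀ X ⊆ N.E, N.Indep X ∨ N.Spanning X) → NearlyUniform N) ∧
    (∀ N : Matroid α, N.RankFinite → NearlyUniform N) ∧
    (∀ N : Matroid α, N✶.RankFinite → NearlyUniform N) :=
  ⟨Vale.Agent.Results.P068.TwoNearlyUniform.result.1,
    Vale.Agent.Results.P068.FiniteNearlyUniform.result⟩
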