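import Vale.Agent.Lib.P068.Final

open Set Matroid

namespace Vale.Agent.Results.P068.FiniteNearlyUniform

open Vale.Agent.Lib.P068

/-- An arbitrary matroid against a direct sum of finitely many nearly uniform matroids satisfies
intersection; uniform matroids, matroids of finite rank and matroids of finite corank are nearly
uniform. -/
theorem result {α : Type*} :
    (∀ {ι : Type*} [Finite ι] (M : Matroid α) (N : ι → Matroid α)
      (h : Pairwise (Function.onFun Disjoint fun i => (N i).E)), M.E = ⋃ i, (N i).E →
      (∀ i, NearlyUniform (N i)) → SatisfiesIntersection M (Matroid.disjointSigma N h)) ∧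
    (∀ N : Matroid α, (∀ X ⊆ N.E, N.Indep X ∨ N.Spanning X) → NearlyUniform N) ∧
    (∀ N : Matroid α, N.RankFinite → NearlyUniform N) ∧
    (∀ N : Matroid α, N✶.RankFinite → NearlyUniform N) := by
  refine ⟨?_, ?_, ?_, ?_⟩
  · intro ι _ M N h hE hN
    exact sat_disjointSigma M N h hE hN
  · intro N hN X hX
    refine ⟨∅, finite_empty, empty_subset _, ?_⟩
    rw [sdiff_empty, union_empty]
    exact hN X hX
  · intro N hN X hX
    obtain ⟨B, hB⟩ := N.exists_isBase
    refine ⟨B, hB.finite, hB.subset_ground, Or.inr ?_⟩
    exact hB.spanning.superset subset_union_right (union_subset hX hB.subset_ground)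
  · intro N hN X hX
    obtain ⟨D, hD⟩ := N✶.exists_isBase
    have hDE : D ⊆ N.E := hD.subset_ground
    refine ⟨D, hD.finite, hDE, Or.inl ?_⟩
    have hB : N.IsBase (N.E \ D) := by
      have := hD.compl_isBase_of_dual
      simpa using this
    exact hB.indep.subset (sdiff_subset_sdiff_left hX)

end Vale.Agent.Results.P068.FiniteNearlyUniform
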